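import Crest.Agent.R175.Cox.Fin

/-!
# Row 175, block Cp: convex piecewise linear functions on a finite Coxeter complex (owner helper59)
-/

set_option autoImplicit false

namespace Crest.Agent.R175.Cp

open Crest.Agent.R61 Crest.Agent.R175.Cox

variable {B W : Type} [Group W] {M : CoxeterMatrix B} (cs : CoxeterSystem M W) [Fintype B] [DecidableEq B]

local prefix:100 "s " => cs.simple
local prefix:100 "ℓ " => cs.length

noncomputable def om (u : B) : V B := Finsupp.single (Sum.inr u) 1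

/-- the vertex of type `u` of the chamber `w` -/
noncomputable def pt (w : W) (u : B) : V B := rep cs w (om u)

/-- coordinates of `y` in the chamber `w` -/
noncomputable def co (w : W) (y : V B) (i : B) : ℝ := form M (al i) (rep cs w⁻¹ y)

noncomputable def ell (U : Finset B) (f : W → B → ℝ) (w : W) (y : V B) : ℝ := ∑ u ∈ U, f w u * co cs w y u

structure Cvx (U : Finset B) (f : W → B → ℝ) : Prop where
  loc : ∀ w ∈ par cs (U : Set B), ∀ i ∈ U, ∀ u, u ≠ i → f (w * s i) u = f w u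
  cvx : ∀ w ∈ par cs (U : Set B), ∀ i ∈ U, 0 ≤ f (w * s i) i - f w i + ∑ u ∈ U, Cm M i u * f w u

/-- steps between zero vertices -/
def ZS (U : Finset B) (f : W → B → ℝ) (p q : W × B) : Prop :=
  p.1 ∈ par cs (U : Set B) ∧ q.1 ∈ par cs (U : Set B) ∧ p.2 ∈ U ∧ q.2 ∈ U ∧ f p.1 p.2 = 0 ∧ f q.1 q.2 = 0 ∧
    (p.1 = q.1 ∨ (p.2 = q.2 ∧ p.1⁻¹ * q.1 ∈ par cs (↑(U.erase p.2) : Set B)))

def ZC (U : Finset B) (f : W → B → ℝ) : W × B → W × B → Prop := Relation.ReflTransGen (ZS cs U f)

def Anti (U : Finset B) (w : W) (u : B) (y : V B) : Prop := co cs w y u < 0 ∧ ∀ i ∈ U, i ≠ u → co cs w y i = 0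

omit [Fintype B] in
theorem form_al_om (i u : B) : form M (al i) (om u) = if i = u then 1 else 0 := by
  rw [om, form_single_inr, al, Finsupp.single_apply]
  simp

omit [Fintype B] in
theorem dom_om (U : Set B) (u : B) : Dom M U (om u) := fun i _ => by
  rw [form_al_om]; split_ifs <;> norm_num

omit [Fintype B] [DecidableEq B] in
theorem co_mul (w : W) (y : V B) (i j : B) : co cs (w * s i) y j = co cs w y j - Cm M i j * co cs w y i := by
  rw [co, mul_inv_rev, cs.inv_simple, rep_mul, form_al_rep_simple]; rfl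

omit [Fintype B] in
theorem co_pt (w : W) (u i : B) : co cs w (pt cs w u) i = if i = u then 1 else 0 := by
  rw [co, pt, rep_inv_rep, form_al_om]

variable {cs} {U : Finset B} {f : W → B → ℝ}

omit [Fintype B] in
theorem Cvx.ell_step (hf : Cvx cs U f) {w : W} (hw : w ∈ par cs (U : Set B)) {i : B} (hi : i ∈ U) (y : V B) :
    ell cs U f w y - ell cs U f (w * s i) y =
      (f (w * s i) i - f w i + ∑ u ∈ U, Cm M i u * f w u) * co cs w y i := by
  have h : ∀ u ∈ U, f w u * co cs w y u - f (w * s i) u * co cs (w * s i) y u =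
      Cm M i u * f w u * co cs w y i + if u = i then (f (w * s i) i - f w i) * co cs w y i else 0 := by
    intro u _
    rw [co_mul]
    by_cases h : u = i
    · subst h; rw [if_pos rfl, Cm_self]; ring
    · rw [if_neg h, hf.loc w hw i hi u h]; ring
  rw [ell, ell, ← Finset.sum_sub_distrib, Finset.sum_congr rfl h, Finset.sum_add_distrib, Finset.sum_ite_eq' U i,
    if_pos hi, add_mul, Finset.sum_mul]
  ring

omit [Fintype B] in
theorem Cvx.ell_le (hf : Cvx cs U f) {w₀ w : W} (hw₀ : w₀ ∈ par cs (U : Set B)) (hw : w ∈ par cs (U : Set B)) {y : V B}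
    (hy : Dom M (U : Set B) (rep cs w₀⁻¹ y)) : ell cs U f w y ≤ ell cs U f w₀ y := by
  have : ∀ v ∈ par cs (U : Set B), ell cs U f (w₀ * v) y ≤ ell cs U f w₀ y := fun v hv =>
    par_induction_right cs (p := fun v => ell cs U f (w₀ * v) y ≤ ell cs U f w₀ y) hv (by rw [mul_one])
      fun v hv i hi h ih => by
        have h1 := hf.ell_step (mul_mem hw₀ hv) hi y
        have h2 := hf.cvx _ (mul_mem hw₀ hv) i hi
        have h3 : 0 ≤ co cs (w₀ * v) y i := by
          rw [co, mul_inv_rev, rep_mul]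
          refine hy.side_up cs (inv_mem hv) hi ?_
          rw [length_simple_mul_eq, inv_inv, cs.length_inv]; omega
        rw [← mul_assoc]
        linarith [mul_nonneg h2 h3]
  simpa using this (w₀⁻¹ * w) (mul_mem (inv_mem hw₀) hw)

omit [Fintype B] in
theorem Cvx.ell_pt_le (hf : Cvx cs U f) {w w' : W} (hw : w ∈ par cs (U : Set B)) (hw' : w' ∈ par cs (U : Set B)) {u : B}
    (hu : u ∈ U) : ell cs U f w' (pt cs w u) ≤ f w u := by
  have h := hf.ell_le hw hw' (y := pt cs w u) (by rw [pt, rep_inv_rep]; exact dom_om _ u)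
  refine h.trans (le_of_eq ?_)
  simp [ell, co_pt, hu]

omit [Fintype B] in
theorem Cvx.f_par (hf : Cvx cs U f) {w v : W} (hw : w ∈ par cs (U : Set B)) {u : B}
    (hv : v ∈ par cs (↑(U.erase u) : Set B)) : f (w * v) u = f w u :=
  par_induction_right cs (p := fun v => f (w * v) u = f w u) hv (by rw [mul_one]) fun v hv i hi _ ih => by
    have hi' := Finset.mem_erase.1 (Finset.mem_coe.1 hi)
    rw [← mul_assoc, hf.loc _ (mul_mem hw (par_mono cs (Finset.coe_subset.2 (Finset.erase_subset u U)) hv)) i hi'.2 u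
      hi'.1.symm, ih]

omit [Fintype B] in
/-- a zero vertex has a negative neighbour as soon as some vertex is negative -/
theorem Cvx.neg_nbr (hU : Sph cs (U : Set B)) (hf : Cvx cs U f) {w w₁ : W} (hw : w ∈ par cs (U : Set B))
    (hw₁ : w₁ ∈ par cs (U : Set B)) {u u₁ : B} (hu₁ : u₁ ∈ U) (h0 : f w u = 0) (h1 : f w₁ u₁ < 0) :
    ∃ v ∈ par cs (↑(U.erase u) : Set B), ∃ u' ∈ U, f (w * v) u' < 0 := by
  have hsub : (↑(U.erase u) : Set B) ⊆ U := Finset.coe_subset.2 (Finset.erase_subset u U)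
  obtain ⟨v, hv, hd⟩ := (hU.mono hsub).cover (rep cs w⁻¹ (pt cs w₁ u₁))
  refine ⟨v⁻¹, inv_mem hv, ?_⟩
  have h2 := hf.ell_pt_le hw₁ (mul_mem hw (par_mono cs hsub (inv_mem hv))) hu₁
  by_contra hn
  push Not at hn
  have : 0 ≤ ell cs U f (w * v⁻¹) (pt cs w₁ u₁) := Finset.sum_nonneg fun i hi => by
    by_cases h : i = u
    · rw [h, hf.f_par hw (inv_mem hv), h0, zero_mul]
    · refine mul_nonneg (hn i hi) ?_
      rw [co, mul_inv_rev, inv_inv, rep_mul]
      exact hd i (Finset.mem_coe.2 (Finset.mem_erase.2 ⟨h, hi⟩))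
  linarith

omit [Fintype B] in
theorem ZS.symm {p q : W × B} (h : ZS cs U f p q) : ZS cs U f q p := by
  obtain ⟨h1, h2, h3, h4, h5, h6, h7⟩ := h
  refine ⟨h2, h1, h4, h3, h6, h5, h7.imp Eq.symm fun h => ⟨h.1.symm, ?_⟩⟩
  rw [← h.1]
  simpa using inv_mem h.2

omit [Fintype B] in
theorem ZC.symm {p q : W × B} (h : ZC cs U f p q) : ZC cs U f q p := by
  induction h with
  | refl => exact Relation.ReflTransGen.refl
  | tail _ h ih => exact Relation.ReflTransGen.head h.symm ih

noncomputable def ht (cs : CoxeterSystem M W) (U : Finset B) (y : V B) (w : W) : ℝ :=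
  ∑ i ∈ U, rep cs w⁻¹ y (Sum.inl i)

omit [Fintype B] in
theorem ht_lt {y : V B} {w : W} {i : B} (hi : i ∈ U) (h : co cs w y i < 0) : ht cs U y w < ht cs U y (w * s i) := by
  have : ht cs U y (w * s i) = ht cs U y w - 2 * co cs w y i := by
    rw [ht, ht, mul_inv_rev, cs.inv_simple, rep_mul, rep_simple]
    simp only [Finsupp.coe_sub, Finsupp.coe_smul, Pi.sub_apply, Pi.smul_apply, smul_eq_mul, Finset.sum_sub_distrib,
      al, Finsupp.single_apply, Sum.inl.injEq, mul_ite, mul_one, mul_zero, Finset.sum_ite_eq, if_pos hi, co]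
  linarith

omit [Fintype B] in
theorem Anti.ht_le {y : V B} {w w' : W} {u : B} (h : Anti cs U w u y) (hw : w ∈ par cs (U : Set B))
    (hw' : w' ∈ par cs (U : Set B)) : ht cs U y w ≤ ht cs U y w' := by
  have hd : Dom M (U : Set B) (-rep cs w⁻¹ y) := fun i hi => by
    rw [map_neg]
    by_cases e : i = u
    · have := h.1; rw [co, ← e] at this; linarith
    · have := h.2 i hi e; rw [co] at this; linarith
  have := hd.rep_le cs (mul_mem (inv_mem hw') hw)
  rw [map_neg, rep_mul, rep_rep_inv, neg_le_neg_iff] at this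
  exact Finset.sum_le_sum fun i _ => this (Sum.inl i)

omit [Fintype B] in
theorem Cvx.walk (hU : Sph cs (U : Set B)) (hf : Cvx cs U f) (h0 : ∀ w ∈ par cs (U : Set B), ∀ u ∈ U, 0 ≤ f w u)
    {y : V B} (hy : ∀ w ∈ par cs (U : Set B), ell cs U f w y ≤ 0) (n : ℕ) : ∀ w ∈ par cs (U : Set B), ∀ u ∈ U,
    (hU.toFinset.filter fun w' => ht cs U y w < ht cs U y w').card = n → f w u = 0 → ¬ Anti cs U w u y →
    ∃ w' u', ZC cs U f (w, u) (w', u') ∧ w' ∈ par cs (U : Set B) ∧ u' ∈ U ∧ f w' u' = 0 ∧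
      Dom M (U : Set B) (rep cs w'⁻¹ y) := by
  induction n using Nat.strong_induction_on with
  | _ n ih =>
  intro w hw u hu hn hz ha
  have move : ∀ u' ∈ U, f w u' = 0 → ∀ i ∈ U, i ≠ u' → co cs w y i < 0 → ∃ w' u'', ZC cs U f (w, u') (w', u'') ∧
      w' ∈ par cs (U : Set B) ∧ u'' ∈ U ∧ f w' u'' = 0 ∧ Dom M (U : Set B) (rep cs w'⁻¹ y) := by
    intro u' hu' hz' i hi hiu hc
    have hw' : w * s i ∈ par cs (U : Set B) := mul_mem hw (simple_mem_par cs hi)
    have hlt := ht_lt (cs := cs) hi hc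
    have hz'' : f (w * s i) u' = 0 := by rw [hf.loc w hw i hi u' hiu.symm, hz']
    obtain ⟨w', u'', h1, h2⟩ := ih _ (by
      rw [← hn]
      refine Finset.card_lt_card ⟨fun v hv => ?_, fun hs => ?_⟩
      · rw [Finset.mem_filter] at hv ⊢
        exact ⟨hv.1, hlt.trans hv.2⟩
      · have := hs (Finset.mem_filter.2 ⟨hU.mem_toFinset.2 hw', hlt⟩)
        exact lt_irrefl _ (Finset.mem_filter.1 this).2) (w * s i) hw' u' hu' rfl hz''
      (fun h => absurd (h.ht_le hw' hw) (not_le.2 hlt))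
    refine ⟨w', u'', Relation.ReflTransGen.head (b := (w * s i, u')) ⟨hw, hw', hu', hu', hz', hz'', Or.inr ⟨rfl, ?_⟩⟩ h1, h2⟩
    simp only [inv_mul_cancel_left]
    exact simple_mem_par cs (Finset.mem_coe.2 (Finset.mem_erase.2 ⟨hiu, hi⟩))
  by_cases hneg : ∃ i ∈ U, i ≠ u ∧ co cs w y i < 0
  · obtain ⟨i, hi, hiu, hc⟩ := hneg
    exact move u hu hz i hi hiu hc
  push Not at hneg
  by_cases hcu : 0 ≤ co cs w y u
  · refine ⟨w, u, Relation.ReflTransGen.refl, hw, hu, hz, fun i hi => ?_⟩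
    by_cases e : i = u
    · rw [e]; exact hcu
    · exact hneg i hi e
  push Not at hcu
  have : ∃ u' ∈ U, u' ≠ u ∧ co cs w y u' ≠ 0 := by
    by_contra hc
    push Not at hc
    exact ha ⟨hcu, hc⟩
  obtain ⟨u', hu', hne, hc⟩ := this
  have hnn : ∀ i ∈ U, 0 ≤ f w i * co cs w y i := fun i hi => by
    by_cases e : i = u
    · rw [e, hz, zero_mul]
    · exact mul_nonneg (h0 w hw i hi) (hneg i hi e)
  have hz' : f w u' = 0 := by
    have := (Finset.sum_eq_zero_iff_of_nonneg hnn).1 (le_antisymm (hy w hw) (Finset.sum_nonneg hnn)) u' hu'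
    exact (mul_eq_zero.1 this).resolve_right hc
  obtain ⟨w', u'', h1, h2⟩ := move u' hu' hz' u hu hne.symm hcu
  exact ⟨w', u'', Relation.ReflTransGen.head (b := (w, u')) ⟨hw, hw, hu, hu', hz, hz', Or.inl rfl⟩ h1, h2⟩

omit [Fintype B] in
theorem par_om_le (u : B) : par cs {i | i ∈ (U : Set B) ∧ form M (al i) (om u) = 0} ≤ par cs (↑(U.erase u) : Set B) :=
  par_mono cs fun i hi => Finset.mem_coe.2 (Finset.mem_erase.2 ⟨fun e => by
    have := hi.2
    rw [form_al_om, if_pos e] at this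
    exact one_ne_zero this, hi.1⟩)

omit [Fintype B] in
theorem Cvx.conn (hU : Sph cs (U : Set B)) (hf : Cvx cs U f) (h0 : ∀ w ∈ par cs (U : Set B), ∀ u ∈ U, 0 ≤ f w u)
    {w w₂ : W} (hw : w ∈ par cs (U : Set B)) (hw₂ : w₂ ∈ par cs (U : Set B)) {u u₂ : B} (hu : u ∈ U) (hu₂ : u₂ ∈ U)
    (hz : f w u = 0) (hz₂ : f w₂ u₂ = 0) (ha : ¬ Anti cs U w u (pt cs w₂ u₂)) : ZC cs U f (w, u) (w₂, u₂) := by
  obtain ⟨w', u', h1, h2, h3, h4, h5⟩ := hf.walk hU h0 (y := pt cs w₂ u₂)
    (fun v hv => hz₂ ▸ hf.ell_pt_le hw₂ hv hu₂) _ w hw u hu rfl hz ha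
  rw [pt, ← rep_mul] at h5
  have h6 := par_om_le u₂ ((dom_om _ u₂).stab cs (mul_mem (inv_mem h2) hw₂) h5)
  have h7 : f w' u₂ = 0 := by rw [← hf.f_par h2 h6, mul_inv_cancel_left, hz₂]
  exact (h1.tail (c := (w', u₂)) ⟨h2, h2, h3, hu₂, h4, h7, Or.inl rfl⟩).tail ⟨h2, hw₂, hu₂, hu₂, h7, hz₂, Or.inr ⟨rfl, h6⟩⟩

omit [Fintype B] in
theorem Anti.coords {y : V B} {w : W} {u : B} (h : Anti cs U w u y) (hw : w ∈ par cs (U : Set B)) :
    ∃ c : ℝ, c < 0 ∧ ∀ i ∈ U, form M (al i) y = c * form M (al i) (pt cs w u) := by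
  refine ⟨co cs w y u, h.1, fun i hi => ?_⟩
  have hn : ∀ j ∈ (U : Set B), form M (al j) (rep cs w⁻¹ y - co cs w y u • om u) = 0 := fun j hj => by
    rw [map_sub, map_smul, form_al_om, smul_eq_mul]
    by_cases e : j = u
    · rw [if_pos e, e, mul_one]; exact sub_self _
    · rw [if_neg e, mul_zero, sub_zero]; exact h.2 j hj e
  have h1 := rep_fix cs hn hw
  have h2 := hn i hi
  rw [← h1, map_sub, map_smul, rep_rep_inv, map_sub, map_smul, smul_eq_mul] at h2
  rw [pt]; linarith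

/-- the dichotomy: a zero vertex is joined to its mirror image through zero vertices, or the pair is antipodal -/
theorem Cvx.mirror (hU : Sph cs (U : Set B)) (hf : Cvx cs U f) (h0 : ∀ w ∈ par cs (U : Set B), ∀ u ∈ U, 0 ≤ f w u)
    {w : W} (hw : w ∈ par cs (U : Set B)) {u t : B} (hu : u ∈ U) (ht : t ∈ U) (hz : f w u = 0)
    (hz' : f (s t * w) u = 0) : ZC cs U f (w, u) (s t * w, u) ∨
      (∑ i ∈ U, Cm M t i * f 1 i = 0 ∧ f (s t) t = f 1 t ∧ ∀ t' ∈ U, t' ≠ t → f (s t' * w) u = 0 →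
        w⁻¹ * (s t' * w) ∈ par cs (↑(U.erase u) : Set B) ∧ Cm M t t' = 0) := by
  rw [or_iff_not_imp_left]
  intro hn
  have hst : ∀ {i}, i ∈ U → s i ∈ par cs (U : Set B) := fun hi => simple_mem_par cs hi
  have hw' := mul_mem (hst ht) hw
  set X : B → ℝ := fun i => form M (al i) (pt cs w u) with hX
  have hrefl : ∀ j i, form M (al i) (pt cs (s j * w) u) = X i - Cm M j i * X j := fun j i => by
    rw [pt, rep_mul, form_al_rep_simple]; rfl
  obtain ⟨c, hc, h1⟩ := Anti.coords (by_contra fun ha => hn (hf.conn hU h0 hw hw' hu hu hz hz' ha)) hw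
  have hXt : X t ≠ 0 := fun e => by
    have h2 : ∀ i ∈ (U : Set B), form M (al i) (pt cs w u) = 0 := fun i hi => by
      have := h1 i hi
      rw [hrefl, e, mul_zero, sub_zero] at this
      have h3 : (1 - c) * X i = 0 := by simp only [hX] at this ⊢; linarith
      exact (mul_eq_zero.1 h3).resolve_left (by linarith)
    have h3 := rep_fix cs h2 (inv_mem hw)
    have h4 := h2 u hu
    rw [← h3, pt, rep_inv_rep, form_al_om, if_pos rfl] at h4
    exact one_ne_zero h4
  have hc1 : c = -1 := by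
    have := h1 t ht
    rw [hrefl, Cm_self] at this
    have h3 : (c + 1) * X t = 0 := by simp only [hX] at this ⊢; linarith
    linarith [(mul_eq_zero.1 h3).resolve_right hXt]
  have hXi : ∀ i ∈ U, 2 * X i = Cm M t i * X t := fun i hi => by
    have := h1 i hi
    rw [hrefl, hc1] at this
    simp only [hX] at this ⊢; linarith
  have hneg : ∀ i ∈ U, form M (al i) (pt cs (s t * w) u) = -X i := fun i hi => by
    rw [hrefl, ← hXi i hi]; ring
  have key : ∀ g : B → ℝ, ∑ i ∈ U, g i * X i ≤ 0 → ∑ i ∈ U, g i * -X i ≤ 0 → ∑ i ∈ U, Cm M t i * g i = 0 := by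
    intro g a1 a2
    simp only [mul_neg, Finset.sum_neg_distrib] at a2
    have a3 : (∑ i ∈ U, Cm M t i * g i) * X t = 2 * ∑ i ∈ U, g i * X i := by
      rw [Finset.sum_mul, Finset.mul_sum]
      exact Finset.sum_congr rfl fun i hi => by linear_combination (-g i) * hXi i hi
    exact (mul_eq_zero.1 (by rw [a3]; linarith)).resolve_right hXt
  have b1 : ∑ i ∈ U, Cm M t i * f 1 i = 0 := by
    apply key
    · have := hf.ell_pt_le hw (one_mem _) hu
      rw [hz, ell] at this
      simpa only [co, inv_one, rep_one] using this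
    · have := hf.ell_pt_le hw' (one_mem _) hu
      rw [hz', ell] at this
      refine le_trans (le_of_eq (Finset.sum_congr rfl fun i hi => ?_)) this
      rw [co, inv_one, rep_one, hneg i hi]
  have b2 : ∑ i ∈ U, Cm M t i * f (s t) i = 0 := by
    apply key
    · have := hf.ell_pt_le hw' (hst ht) hu
      rw [hz', ell] at this
      refine le_trans (le_of_eq (Finset.sum_congr rfl fun i _ => ?_)) this
      rw [co, pt, rep_mul, rep_inv_rep]; rfl
    · have := hf.ell_pt_le hw (hst ht) hu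
      rw [hz, ell] at this
      refine le_trans (le_of_eq (Finset.sum_congr rfl fun i hi => ?_)) this
      rw [← hneg i hi, co, cs.inv_simple, pt, pt, rep_mul]
  refine ⟨b1, ?_, fun t' ht' hne hz₃ => ?_⟩
  · have : ∑ i ∈ U, (Cm M t i * f (s t) i - Cm M t i * f 1 i) = 2 * (f (s t) t - f 1 t) := by
      rw [Finset.sum_eq_single_of_mem t ht]
      · rw [Cm_self]; ring
      · intro i _ hi
        have := hf.loc 1 (one_mem _) t ht i hi
        rw [one_mul] at this
        rw [this, sub_self]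
    rw [Finset.sum_sub_distrib, b1, b2] at this
    linarith
  have hw₃ := mul_mem (hst ht') hw
  have : ∃ c : ℝ, ∀ i ∈ U, X i - Cm M t' i * X t' = c * X i := by
    by_cases ha : Anti cs U w u (pt cs (s t' * w) u)
    · obtain ⟨c, -, h⟩ := ha.coords hw
      exact ⟨c, fun i hi => by rw [← hrefl]; exact h i hi⟩
    · have h2 := hf.conn hU h0 hw hw₃ hu hu hz hz₃ ha
      obtain ⟨c, -, h⟩ := Anti.coords (by_contra fun ha' =>
        hn (h2.trans (ZC.symm (hf.conn hU h0 hw' hw₃ hu hu hz' hz₃ ha')))) hw'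
      exact ⟨-c, fun i hi => by rw [← hrefl, h i hi, hneg i hi]; ring⟩
  obtain ⟨c', hc'⟩ := this
  have e1 := hc' t' ht'
  have e2 := hc' t ht
  have e3 := hXi t' ht'
  rw [Cm_self] at e1
  rw [Cm_symm M t' t] at e2
  have hpos : -2 < Cm M t t' := by
    have := hU.pd.form_pos (add_mem (al_mem_VU (Finset.mem_coe.2 ht)) (al_mem_VU (Finset.mem_coe.2 ht'))) (fun e => by
      have := DFunLike.congr_fun e (Sum.inl t)
      simp [al, hne] at this)
    simp only [map_add, LinearMap.add_apply, form_al_self] at this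
    rw [Cm_form]
    rw [form_symm M (al t') (al t)] at this
    linarith
  have hnp := Cm_nonpos M hne.symm
  have hX' : X t' = 0 := by
    by_contra hx
    have a1 : c' = -1 := by
      have : (c' + 1) * X t' = 0 := by linarith
      linarith [(mul_eq_zero.1 this).resolve_right hx]
    rw [a1] at e2
    have a2 : (4 - Cm M t t' ^ 2) * X t' = 0 := by linear_combination 2 * e3 + Cm M t t' * e2
    have a3 : 0 < 4 - Cm M t t' ^ 2 := by nlinarith
    exact hx ((mul_eq_zero.1 a2).resolve_left a3.ne')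
  refine ⟨par_om_le u (((dom_om _ u).stab_iff cs (mul_mem (inv_mem hw) hw₃)).1 ?_), ?_⟩
  · rw [rep_mul, rep_mul, rep_simple]
    have : form M (al t') (rep cs w (om u)) = 0 := hX'
    rw [this, mul_zero, zero_smul, sub_zero, rep_inv_rep]
  · rw [hX', mul_zero] at e3
    exact (mul_eq_zero.1 e3.symm).resolve_right hXt

end Crest.Agent.R175.Cp
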