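import Crest.Agent.R175.Cp.Geo
import Crest.Agent.R175.Dir.Main

/-!
# Row 175, block Cp: claim `C'(U)` for `U` of finite type (owner helper59)
-/

set_option autoImplicit false
set_option linter.unusedSectionVars false

open Finset Crest.GroupTheory

noncomputable section

namespace Crest.Agent.R175.Cp

open Crest.Agent.R175.Cox Crest.Agent.R175.P Crest.Agent.R175.P.Mdl

variable {S : Type} [Fintype S] [DecidableEq S] {M : CoxeterMatrix S} (Q : Mdl M)

/-- the function `h - c` on the apartment below `x` -/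
def fA (x : Q.X) (m : ℤ) (c : S → ℝ) (w : M.Group) (u : S) : ℝ := Q.v ((lf M w)⁻¹ • x) m u - c u

/-- the vertex `(u, a)` has a neighbour in `D` -/
def Good (U : Finset S) (x : Q.X) (m : ℤ) (c : S → ℝ) (u : S) (a : ArtinGroup M) : Prop :=
  ∃ p, Q.D U x m c p ∧ p.2 * a⁻¹ ∈ AP M (U.erase u)

variable {Q} {U : Finset S} {x : Q.X} {m : ℤ} {c : S → ℝ}

theorem lf_up {w : M.Group} {i : S} (h : (cx M).length w < (cx M).length (w * (cx M).simple i)) :
    lf M (w * (cx M).simple i) = lf M w * σ M i := lft_mul_simple _ (braid_gen M) h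

theorem lf_upl {w : M.Group} {i : S} (h : (cx M).length w < (cx M).length ((cx M).simple i * w)) :
    lf M ((cx M).simple i * w) = σ M i * lf M w := lft_simple_mul _ (braid_gen M) h

theorem lf_down {w : M.Group} {i : S} (h : (cx M).length (w * (cx M).simple i) < (cx M).length w) :
    lf M w = lf M (w * (cx M).simple i) * σ M i := lft_of_down _ (braid_gen M) h

theorem lf_downl {w : M.Group} {i : S} (h : (cx M).length ((cx M).simple i * w) < (cx M).length w) :
    lf M w = σ M i * lf M ((cx M).simple i * w) := lft_of_downl _ (braid_gen M) h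

theorem lf_one : lf M 1 = 1 := lft_one _ (braid_gen M)

theorem lf_simple (i : S) : lf M ((cx M).simple i) = σ M i := lft_simple _ (braid_gen M) i

theorem sum_Cm (U : Finset S) {i : S} (hi : i ∈ U) (g : S → ℝ) : ∑ u ∈ U, Cm M i u * g u = Car M U g i := by
  simp only [Car, Cm_eq_adj, sub_mul, sum_sub_distrib, ite_mul, zero_mul, sum_ite_eq, if_pos hi]

theorem full_sum (U : Finset S) (y : Q.X) (m : ℤ) (i : S) : Q.fr y m i + ∑ t, adj M i t * Q.v y m t =
    Q.b U y m i + ∑ t ∈ U, adj M i t * Q.v y m t := by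
  rw [b, ← sum_add_sum_compl U]; ring

theorem car_sub (U : Finset S) (g g' : S → ℝ) (i : S) :
    Car M U (fun u => g u - g' u) i = Car M U g i - Car M U g' i := by
  simp only [Car, mul_sub, sum_sub_distrib]; ring

theorem down_ineq {y : Q.X} (hy : Q.Le U m y) (hc : Q.Adm U y m c) {i : S} (hi : i ∈ U) :
    0 ≤ Q.v ((σ M i)⁻¹ • y) m i - Q.v y m i + Car M U (fun u => Q.v y m u - c u) i := by
  have h1 := (Q.down i m y (hy.mono (singleton_subset_iff.2 hi) le_rfl)).2
  have h2 := hc i hi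
  rw [full_sum U] at h1
  rw [car_sub, Car]
  linarith

theorem cvx (hx : Q.Le U m x) (hc : Q.Adm U x m c) : Cvx (cx M) U (fA Q x m c) := by
  have loc : ∀ (w : M.Group) (i u : S), u ≠ i → fA Q x m c (w * (cx M).simple i) u = fA Q x m c w u := by
    intro w i u hu
    rcases up_or_down' (cx M) w i with h | h
    · rw [fA, fA, lf_up h, mul_inv_rev, mul_smul, Q.v_inv_smul hu]
    · rw [fA, fA, lf_down h, mul_inv_rev, mul_smul, Q.v_inv_smul hu]
  have up : ∀ w ∈ par (cx M) (U : Set S), ∀ i ∈ U, (cx M).length w < (cx M).length (w * (cx M).simple i) →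
      0 ≤ fA Q x m c (w * (cx M).simple i) i - fA Q x m c w i + ∑ u ∈ U, Cm M i u * fA Q x m c w u := by
    intro w hw i hi h
    have := down_ineq (le_down Q (lf_mem_pos hw) hx) (hc.smul (inv_mem (pos_mem_AP (lf_mem_pos hw)))) hi
    rw [sum_Cm U hi, fA, fA, lf_up h, mul_inv_rev, mul_smul]
    unfold fA
    linarith
  refine ⟨fun w _ i _ u hu => loc w i u hu, fun w hw i hi => ?_⟩
  rcases up_or_down' (cx M) w i with h | h
  · exact up w hw i hi h
  · have := up _ (mul_mem hw (simple_mem_par _ hi)) i hi (by rwa [CoxeterSystem.simple_mul_simple_cancel_right])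
    rw [CoxeterSystem.simple_mul_simple_cancel_right, sum_Cm U hi, Car,
      sum_congr rfl (g := fun u => adj M i u * fA Q x m c w u) fun u _ => by
        by_cases e : u = i
        · rw [e, adj_self, zero_mul, zero_mul]
        · rw [loc w i u e]] at this
    rw [sum_Cm U hi, Car]
    linarith

theorem D_smul {g : ArtinGroup M} (hg : g ∈ AP M U) {p : S × ArtinGroup M} (h : Q.D U (g • x) m c p) :
    Q.D U x m c (p.1, p.2 * g) := by
  obtain ⟨⟨h1, h2, h3⟩, h4⟩ := h
  exact ⟨⟨h1, mul_mem h2 hg, by simpa only [mul_smul] using h3⟩, by simpa only [mul_smul] using h4⟩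

theorem DN_smul {g : ArtinGroup M} (hg : g ∈ AP M U) (h : ∃ p, Q.D U x m c p) : ∃ p, Q.D U (g • x) m c p := by
  obtain ⟨p, hp⟩ := h
  exact ⟨_, D_smul (inv_mem hg) (by rwa [inv_smul_smul])⟩

theorem Good.smul {g a : ArtinGroup M} (hg : g ∈ AP M U) {u : S} (h : Good Q U (g • x) m c u a) :
    Good Q U x m c u (a * g) := by
  obtain ⟨p, h1, h2⟩ := h
  exact ⟨_, D_smul hg h1, by simpa [mul_assoc] using h2⟩

theorem Good.same {a a' : ArtinGroup M} {u : S} (h : Good Q U x m c u a) (h' : a * a'⁻¹ ∈ AP M (U.erase u)) :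
    Good Q U x m c u a' := by
  obtain ⟨p, h1, h2⟩ := h
  exact ⟨p, h1, by simpa [mul_assoc] using mul_mem h2 h'⟩

theorem lf_par {T : Finset S} (w : M.Group) {v : M.Group} (hv : v ∈ par (cx M) (T : Set S)) :
    (lf M (w * v))⁻¹ * lf M w ∈ AP M T :=
  par_induction_right (cx M) (p := fun v => (lf M (w * v))⁻¹ * lf M w ∈ AP M T) hv (by simp) fun v _ i hi _ ih => by
    rw [← mul_assoc]
    rcases up_or_down' (cx M) (w * v) i with h | h
    · rw [lf_up h, mul_inv_rev, mul_assoc]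
      exact mul_mem (inv_mem (σ_mem_AP hi)) ih
    · rw [lf_down h, mul_inv_rev, mul_assoc] at ih
      simpa using mul_mem (σ_mem_AP (M := M) hi) ih

theorem lf_par' {T : Finset S} {w w' : M.Group} (h : w⁻¹ * w' ∈ par (cx M) (T : Set S)) :
    (lf M w')⁻¹ * (lf M w)⁻¹⁻¹ ∈ AP M T := by
  have := lf_par w h
  rwa [mul_inv_cancel_left, ← inv_inv (lf M w)] at this

theorem D_of_neg (hx : Q.Le U m x) {w : M.Group} (hw : w ∈ par (cx M) (U : Set S)) {u : S} (hu : u ∈ U)
    (h : fA Q x m c w u < 0) : Q.D U x m c (u, (lf M w)⁻¹) :=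
  ⟨⟨hu, inv_mem (pos_mem_AP (lf_mem_pos hw)), fun n hn => (le_down Q (lf_mem_pos hw) hx n hn u hu).2.1⟩,
    sub_neg.1 h⟩

/-- good spreads along the edges of ties (uses `C'` in the link) -/
theorem Good.spread {a : ArtinGroup M} (ha : a ∈ AP M U) (hx : Q.Le U m (a • x)) (hc : Q.Adm U x m c) {u u' : S}
    (hu : u ∈ U) (hu' : u' ∈ U) (h0 : Q.v (a • x) m u = c u) (h0' : Q.v (a • x) m u' = c u')
    (ih : S_C' Q (U.erase u)) (h : Good Q U x m c u a) : Good Q U x m c u' a := by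
  by_cases e : u' = u
  · rwa [e]
  obtain ⟨p, ⟨⟨h1, h2, h3⟩, h4⟩, h5⟩ := h
  have e2 : p.2 • x = (p.2 * a⁻¹) • a • x := by rw [mul_smul, inv_smul_smul]
  have hpu : p.1 ≠ u := fun e => by
    rw [e2, e, Q.v_smul h5 (notMem_erase _ _), h0] at h4
    exact lt_irrefl _ h4
  have hadm : Q.Adm (U.erase u) (a • x) m c := fun r hr => by
    have := hc.smul ha r (mem_of_mem_erase hr)
    rw [Car, b] at this ⊢
    rw [← add_sum_erase U _ hu] at this
    rw [compl_erase, sum_insert (by simpa using hu), h0]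
    linarith
  obtain ⟨p', ⟨⟨g1, g2, g3⟩, g4⟩, g5⟩ := ih (a • x) m c (hx.mono (erase_subset _ _) le_rfl).out hadm
    ⟨(p.1, p.2 * a⁻¹), ⟨mem_erase.2 ⟨hpu, h1⟩, h5, by rwa [← e2]⟩, by rwa [← e2]⟩ (u', 1)
    ⟨mem_erase.2 ⟨e, hu'⟩, one_mem _, fun n hn => by rw [one_smul]; exact (hx n hn u' hu').2.1⟩ (by rwa [one_smul])
  refine ⟨_, D_smul ha (p := p') ⟨⟨mem_of_mem_erase g1, AP_mono (erase_subset _ _) g2, g3⟩, g4⟩, ?_⟩
  simpa using AP_mono (erase_subset_erase u' (erase_subset u U)) g5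

theorem good_of_ZC (hx : Q.Le U m x) (hc : Q.Adm U x m c) (ih : ∀ u ∈ U, S_C' Q (U.erase u)) {p q : M.Group × S}
    (h : ZC (cx M) U (fA Q x m c) p q) (hp : Good Q U x m c p.2 (lf M p.1)⁻¹) : Good Q U x m c q.2 (lf M q.1)⁻¹ := by
  induction h with
  | refl => exact hp
  | tail _ h ih' =>
    obtain ⟨h1, -, h3, h4, h5, h6, h7 | ⟨h7, h8⟩⟩ := h
    · rw [← h7] at h6 ⊢
      exact ih'.spread (inv_mem (pos_mem_AP (lf_mem_pos h1))) (le_down Q (lf_mem_pos h1) hx) hc h3 h4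
        (sub_eq_zero.1 h5) (sub_eq_zero.1 h6) (ih _ h3)
    · rw [← h7]
      refine ih'.same ?_
      have := inv_mem (lf_par' h8)
      rwa [mul_inv_rev, inv_inv] at this

/-- upward transfer -/
theorem neg_up {q : ArtinGroup M} (hq : q ∈ Pos M U) : ∀ y : Q.X, Q.Le U m y →
    (∃ w ∈ par (cx M) (U : Set S), ∃ u ∈ U, fA Q (q⁻¹ • y) m c w u < 0) →
    ∃ w ∈ par (cx M) (U : Set S), ∃ u ∈ U, fA Q y m c w u < 0 := by
  refine pos_induction_left (P := fun q => ∀ y : Q.X, Q.Le U m y →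
    (∃ w ∈ par (cx M) (U : Set S), ∃ u ∈ U, fA Q (q⁻¹ • y) m c w u < 0) →
    ∃ w ∈ par (cx M) (U : Set S), ∃ u ∈ U, fA Q y m c w u < 0) hq (fun y _ h => by simpa using h)
    fun i hi q _ ih y hy h => ?_
  rw [mul_inv_rev, mul_smul] at h
  obtain ⟨w, hw, u, hu, h⟩ := ih _ (hy.down1 hi) h
  have hw' := mul_mem (simple_mem_par (cx M) (U := (U : Set S)) hi) hw
  rcases upl_or_downl (cx M) w i with h1 | h1
  · exact ⟨_, hw', u, hu, by rwa [fA, lf_upl h1, mul_inv_rev, mul_smul]⟩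
  · refine ⟨w, hw, u, hu, ?_⟩
    have := Q.fold U i hi m ((σ M i)⁻¹ • y) (by rwa [smul_inv_smul]) _ (lf_mem_pos hw') u
    rw [fA, lf_downl h1, mul_inv_rev, mul_smul] at h ⊢
    linarith

/-- `D` meets the apartment of a terminal chamber -/
theorem neg_of_terminal (hU : FinT M U) (hx : Q.Le U m x) (hD : ∃ p, Q.D U x m c p)
    (ht : ∀ t ∈ Alw Q U m x, σ M t • x = x) : ∃ w ∈ par (cx M) (U : Set S), ∃ u ∈ U, fA Q x m c w u < 0 := by
  obtain ⟨p, hp, h4⟩ := hD
  obtain ⟨a, h1, h2⟩ := (ch Q hU x m hx.out).2 p hp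
  have ha : a ∈ AP M U := by simpa using mul_mem (AP_mono (erase_subset _ _) h1) hp.2.1
  obtain ⟨d, a1, a2, a3⟩ := dir Q hU x m a ha 1 (one_mem _) h2 (by rwa [one_smul])
  rw [inv_one, mul_one] at a2
  have hd : d • x = x := smul_of_neu Q (pos_mem_AP (neu_of_terminal Q ht a2 a3))
  refine neg_up a1 x hx ⟨1, one_mem _, p.1, hp.1, ?_⟩
  have e : (d * a⁻¹)⁻¹ • x = (a * p.2⁻¹) • p.2 • x := by
    rw [mul_smul a, inv_smul_smul, mul_inv_rev, inv_inv, mul_smul, inv_smul_eq_iff.2 hd.symm]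
  rw [fA, lf_one, inv_one, one_smul, e, Q.v_smul h1 (notMem_erase _ _)]
  exact sub_neg.2 h4

/-- the exceptional configuration is impossible -/
theorem not_exc (hU : FinT M U) {t : S} (ht : t ∈ U) (hx : Q.Le U m x) : (∃ p, Q.D U x m c p) →
    (∀ w ∈ par (cx M) (U : Set S), ∀ u ∈ U, 0 ≤ fA Q x m c w u) → Q.Le U m (σ M t • x) → σ M t • x ≠ x →
    (∀ r ∈ U, r ≠ t → Q.Le U m (σ M r • x) → σ M r • x = x ∧ adj M t r = 0) →
    2 * Q.v x m t = Q.fr x m t + ∑ u, adj M t u * Q.v x m u → Q.v ((σ M t)⁻¹ • x) m t = Q.v x m t → False := by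
  refine term_induction Q hU (P := fun x => (∃ p, Q.D U x m c p) →
    (∀ w ∈ par (cx M) (U : Set S), ∀ u ∈ U, 0 ≤ fA Q x m c w u) → Q.Le U m (σ M t • x) → σ M t • x ≠ x →
    (∀ r ∈ U, r ≠ t → Q.Le U m (σ M r • x) → σ M r • x = x ∧ adj M t r = 0) →
    2 * Q.v x m t = Q.fr x m t + ∑ u, adj M t u * Q.v x m u → Q.v ((σ M t)⁻¹ • x) m t = Q.v x m t → False)
    (fun x _ ih hD h0 hal hne hr h2 h3 => ?_) hx
  obtain ⟨e1, e2⟩ := Q.exact U t ht m x hal h2 h3
  have hD' := DN_smul (σ_mem_AP ht) hD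
  have h0' : ∀ w ∈ par (cx M) (U : Set S), ∀ u ∈ U, 0 ≤ fA Q (σ M t • x) m c w u := fun w hw u hu => by
    have := e1 _ (lf_mem_pos hw) u
    have := h0 w hw u hu
    unfold fA at *
    linarith
  have hr' : ∀ r ∈ U, r ≠ t → Q.Le U m (σ M r • σ M t • x) → σ M r • σ M t • x = σ M t • x ∧ adj M t r = 0 := by
    intro r hrU hrt h
    obtain ⟨b1, b2⟩ := hr r hrU hrt (e2 r hrU hrt h)
    exact ⟨by rw [← mul_smul, ← comm_of_adj M b2, mul_smul, b1], b2⟩
  by_cases hal' : Q.Le U m (σ M t • σ M t • x)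
  · have f1 := Q.fold U t ht m _ hal' 1 (one_mem _) t
    have f2 := e1 1 (one_mem _) t
    simp only [inv_one, one_smul, inv_smul_smul] at f1 f2
    have f3 : Q.v (σ M t • x) m t = Q.v x m t := le_antisymm f1 f2
    refine ih t ((mem_alw Q).2 ⟨ht, hal⟩) hne hD' h0' hal' (fun e => hne ((smul_left_cancel_iff _).1 e)) hr' ?_
      (by rw [inv_smul_smul, f3])
    rw [f3, h2, Q.fr_smul]
    congr 1
    refine sum_congr rfl fun u _ => ?_
    by_cases e : u = t
    · rw [e, f3]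
    · rw [Q.loc t u e]
  · obtain ⟨w, hw, u, hu, h⟩ := neg_of_terminal hU hal hD' fun r h => by
      obtain ⟨b1, b2⟩ := (mem_alw Q).1 h
      exact (hr' r b1 (fun e => hal' (e ▸ b2)) b2).1
    exact absurd h (not_lt.2 (h0' w hw u hu))

theorem good_apt (hU : FinT M U) (ihU : ∀ u ∈ U, S_C' Q (U.erase u)) (hx : Q.Le U m x) : Q.Adm U x m c →
    (∃ p, Q.D U x m c p) → ∀ w ∈ par (cx M) (U : Set S), ∀ u ∈ U, fA Q x m c w u = 0 →
    Good Q U x m c u (lf M w)⁻¹ := by
  refine term_induction Q hU (P := fun x => Q.Adm U x m c → (∃ p, Q.D U x m c p) →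
    ∀ w ∈ par (cx M) (U : Set S), ∀ u ∈ U, fA Q x m c w u = 0 → Good Q U x m c u (lf M w)⁻¹)
    (fun x hx ih hc hD w hw u hu hz => ?_) hx
  have hf := cvx hx hc
  by_cases hneg : ∃ w ∈ par (cx M) (U : Set S), ∃ u ∈ U, fA Q x m c w u < 0
  · obtain ⟨w₁, hw₁, u₁, hu₁, h1⟩ := hneg
    obtain ⟨v, hv, u', hu', h2⟩ := hf.neg_nbr hU.sph hw hw₁ hu₁ hz h1
    exact ⟨_, D_of_neg hx (mul_mem hw (par_mono _ (coe_subset.2 (erase_subset _ _)) hv)) hu' h2,
      lf_par' (by rwa [inv_mul_cancel_left])⟩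
  have h0 : ∀ w ∈ par (cx M) (U : Set S), ∀ u ∈ U, 0 ≤ fA Q x m c w u := fun w hw u hu =>
    not_lt.1 fun h => hneg ⟨w, hw, u, hu, h⟩
  have hst : ∀ {i}, i ∈ U → (cx M).simple i ∈ par (cx M) (U : Set S) := fun hi => simple_mem_par _ hi
  -- vertices on the positive side of a non-neutral allowed wall are good
  have up : ∀ t ∈ U, Q.Le U m (σ M t • x) → σ M t • x ≠ x → ∀ w ∈ par (cx M) (U : Set S),
      (cx M).length w < (cx M).length ((cx M).simple t * w) → fA Q x m c w u = 0 → Good Q U x m c u (lf M w)⁻¹ := by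
    intro t ht hal hne w hw h hz
    have := (ih t ((mem_alw Q).2 ⟨ht, hal⟩) hne (hc.smul (σ_mem_AP ht)) (DN_smul (σ_mem_AP ht) hD) _
      (mul_mem (hst ht) hw) u hu (by rwa [fA, lf_upl h, mul_inv_rev, mul_smul, inv_smul_smul])).smul (σ_mem_AP ht)
    rwa [lf_upl h, mul_inv_rev, inv_mul_cancel_right] at this
  have fold : ∀ t ∈ U, Q.Le U m (σ M t • x) → (cx M).length ((cx M).simple t * w) < (cx M).length w →
      fA Q x m c ((cx M).simple t * w) u = 0 := by
    intro t ht hal h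
    have := Q.fold U t ht m x hal _ (lf_mem_pos (mul_mem (hst ht) hw)) u
    have h1 := h0 _ (mul_mem (hst ht) hw) u hu
    rw [fA, lf_downl h, mul_inv_rev, mul_smul] at hz
    unfold fA at *
    linarith
  have upf : ∀ t ∈ U, Q.Le U m (σ M t • x) → σ M t • x ≠ x → (cx M).length ((cx M).simple t * w) < (cx M).length w →
      Good Q U x m c u (lf M ((cx M).simple t * w))⁻¹ := fun t ht hal hne h =>
    up t ht hal hne _ (mul_mem (hst ht) hw) (by rwa [CoxeterSystem.simple_mul_simple_cancel_left]) (fold t ht hal h)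
  have : ∃ t ∈ Alw Q U m x, σ M t • x ≠ x := by
    by_contra h
    push Not at h
    exact hneg (neg_of_terminal hU hx hD h)
  obtain ⟨t, ht, hne⟩ := this
  obtain ⟨ht, hal⟩ := (mem_alw Q).1 ht
  rcases upl_or_downl (cx M) w t with h | h
  · exact up t ht hal hne w hw h hz
  rcases hf.mirror hU.sph h0 hw hu ht hz (fold t ht hal h) with hc' | ⟨b1, b2, b3⟩
  · exact good_of_ZC (p := ((cx M).simple t * w, u)) (q := (w, u)) hx hc ihU hc'.symm (upf t ht hal hne h)
  by_cases hex : ∃ r ∈ U, r ≠ t ∧ Q.Le U m (σ M r • x) ∧ σ M r • x ≠ x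
  · obtain ⟨r, hr, hrt, hal', hne'⟩ := hex
    rcases upl_or_downl (cx M) w r with h' | h'
    · exact up r hr hal' hne' w hw h' hz
    · exact (upf r hr hal' hne' h').same (lf_par' (b3 r hr hrt (fold r hr hal' h')).1)
  push Not at hex
  rw [fA, fA, lf_simple, lf_one, inv_one, one_smul, sub_left_inj] at b2
  refine (not_exc hU ht hx hD h0 hal hne (fun r hr hrt hal' => ⟨hex r hr hrt hal', ?_⟩) ?_ b2).elim
  · rw [adj_eq M hrt.symm, (b3 r hr hrt ?_).2, neg_zero]
    rcases upl_or_downl (cx M) w r with h' | h'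
    · rwa [fA, lf_upl h', mul_inv_rev, mul_smul, inv_smul_eq_iff.2 (hex r hr hrt hal').symm]
    · exact fold r hr hal' h'
  · have h1 := (Q.down t m x (hx.mono (singleton_subset_iff.2 ht) le_rfl)).2
    have h2 := hc t ht
    rw [sum_Cm U ht] at b1
    have b4 : Car M U (fun u => Q.v x m u - c u) t = 0 := by
      rw [← b1]; congr 1; funext u; rw [fA, lf_one, inv_one, one_smul]
    rw [car_sub, Car] at b4
    rw [full_sum U] at h1 ⊢
    linarith

end Crest.Agent.R175.Cp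

namespace Crest.Agent.R175.P

variable {S : Type} [Fintype S] [DecidableEq S] {M : CoxeterMatrix S} (Q : Mdl M)

/-- claim `C'(U)` for `U` of finite type -/
theorem cprime {U : Finset S} (hU : FinT M U) : S_C' Q U := by
  induction U using Finset.strongInduction with
  | H U ih =>
    intro x m c ho hc hD z hz h0
    obtain ⟨a, h1, h2⟩ := (ch Q hU x m ho).2 z hz
    have ha : a ∈ AP M U := by simpa using mul_mem (AP_mono (erase_subset _ _) h1) hz.2.1
    have e : a • x = (a * z.2⁻¹) • z.2 • x := by rw [mul_smul, inv_smul_smul]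
    have := Cp.good_apt hU (fun u hu => ih _ (erase_ssubset hu) (hU.mono (erase_subset _ _))) h2 (hc.smul ha)
      (Cp.DN_smul ha hD) 1 (one_mem _) z.1 hz.1 (by
        rw [Cp.fA, Cp.lf_one, inv_one, one_smul, e, Q.v_smul h1 (notMem_erase _ _), h0, sub_self])
    exact (this.smul ha).same (by simpa [Cp.lf_one] using h1)

end Crest.Agent.R175.P
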